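import Mathlib.Topology.Homotopy.Contractible

/-!
# P260: cell-like sets
-/

set_option autoImplicit false

namespace Vale.Agent.P260

/-- A nonempty compact connected subset `F` of a space is cell-like if every open set `U`
containing `F` contains an open set `V` containing `F` such that the inclusion of `V` into `U` is
homotopic to a constant map. -/
def CellLike {X : Type*} [TopologicalSpace X] (F : Set X) : Prop :=
  IsCompact F ∧ IsConnected F ∧ ∀ U : Set X, IsOpen U → F ⊆ U →
    ∃ V : Set X, IsOpen V ∧ F ⊆ V ∧ ∃ h : V ⊆ U, (ContinuousMap.inclusion h).Nullhomotopic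

end Vale.Agent.P260
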